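import Vale.Agent.P078.Defs
import Vale.Agent.P078.Main

namespace Vale.Agent.Results.P078.NowhereExpected

open Vale.Agent.P078

universe u

theorem result {H : Type u} [NormedAddCommGroup H] [InnerProductSpace ℂ H] [CompleteSpace H]
    [Nontrivial H] (M : VonNeumannAlgebra H) (A : StarSubalgebra ℂ (H →L[ℂ] H))
    (hA : IsMASA M A) (hN : ∀ ψ, IsCentralised M A ψ → ∀ x ∈ M, ψ x = 0)
    (ε : ℝ) (hε : 0 < ε) :
    (⌈1 / ε⌉₊ : ℕ∞) ≤ pavingNumber M A ε ∧ pavingNumber M A ε ≤ ⌊1 / ε⌋₊ + 1 := by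
  have hinf : Infinitesimal M A 1 :=
    infinitesimal_of_noCentralised hA (one_mem A) one_isStarProjection
      (fun ψ hψ => hN ψ hψ 1 (one_mem M))
  rw [← cornerPavingNumber_one]
  exact ⟨ceil_le_corner hA (one_mem A) one_isStarProjection one_ne_zero hinf hε,
    corner_le_floor hA (one_mem A) one_isStarProjection hinf hε⟩

end Vale.Agent.Results.P078.NowhereExpected
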