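import Vale.Agent.P078.Defs
import Vale.Agent.P078.DefsCorner
import Vale.Agent.P078.Main

namespace Vale.Agent.Results.P078.Reduction

open Vale.Agent.P078

universe u

theorem result {H : Type u} [NormedAddCommGroup H] [InnerProductSpace ℂ H] [CompleteSpace H]
    (M : VonNeumannAlgebra H) (A : StarSubalgebra ℂ (H →L[ℂ] H)) (hA : IsMASA M A) :
    ∃ z ∈ A, IsStarProjection z ∧
      (∀ ψ, IsCentralised M A ψ → ψ (1 - z) = 0) ∧
      (∀ g ∈ A, IsStarProjection g → z * g = g → g ≠ 0 →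
        ∃ ψ, IsCentralised M A ψ ∧ ψ g ≠ 0) ∧
      (∀ ε : ℝ, 0 < ε →
        pavingNumber M A ε ≤ cornerPavingNumber M A z ε + (⌊1 / ε⌋₊ + 1)) ∧
      (∀ ε ε' : ℝ, ε < ε' → cornerPavingNumber M A z ε' ≤ pavingNumber M A ε) ∧
      (z ≠ 1 → ∀ ε : ℝ, 0 < ε →
        (⌈1 / ε⌉₊ : ℕ∞) ≤ pavingNumber M A ε ∧
        (⌈1 / ε⌉₊ : ℕ∞) ≤ cornerPavingNumber M A (1 - z) ε ∧
        cornerPavingNumber M A (1 - z) ε ≤ ⌊1 / ε⌋₊ + 1) := by
  obtain ⟨z, hzA, hz, h1, h2, hinf⟩ := exists_expected_part hA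
  have hz'A : 1 - z ∈ A := sub_mem (one_mem A) hzA
  refine ⟨z, hzA, hz, h1, h2, fun ε hε => pavingNumber_le_add hA hzA hz hε hinf, ?_, ?_⟩
  · intro ε ε' hεε
    rw [← cornerPavingNumber_one]
    exact cornerPavingNumber_mono hA hzA hz one_isStarProjection (mul_one z) hεε
  · intro hz1 ε hε
    have hz0 : 1 - z ≠ 0 := fun h => hz1 (sub_eq_zero.mp h).symm
    refine ⟨?_, ceil_le_corner hA hz'A hz.one_sub hz0 hinf hε,
      corner_le_floor hA hz'A hz.one_sub hinf hε⟩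
    rw [← cornerPavingNumber_one]
    exact ceil_le_of_forall hε (fun ε' hεε =>
      (ceil_le_corner hA hz'A hz.one_sub hz0 hinf (hε.trans hεε)).trans
        (cornerPavingNumber_mono hA hz'A hz.one_sub one_isStarProjection (mul_one _) hεε))

end Vale.Agent.Results.P078.Reduction
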