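import Vale.Agent.P078.Defs
import Vale.Agent.P078.DefsCorner
import Vale.Agent.P078.DefsState
import Vale.Agent.P078.State2

namespace Vale.Agent.Results.P078.StateReduction

open Vale.Agent.P078

universe u

theorem result {H : Type u} [NormedAddCommGroup H] [InnerProductSpace ℂ H] [CompleteSpace H]
    [Nontrivial H] (M : VonNeumannAlgebra H) (A : StarSubalgebra ℂ (H →L[ℂ] H))
    (hA : IsMASA M A) :
    (∀ ε : ℝ, 0 < ε → pavingNumber M A ε ≤
      (⨆ (g : H →L[ℂ] H) (_ : IsStateCorner M A g), cornerPavingNumber M A g ε) +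
        (⌊1 / ε⌋₊ + 1)) ∧
    (∀ g, IsStateCorner M A g → ∀ ε ε' : ℝ, ε < ε' →
      cornerPavingNumber M A g ε' ≤ pavingNumber M A ε) ∧
    ((∀ g, IsStateCorner M A g → g = 0) → ∀ ε : ℝ, 0 < ε →
      (⌈1 / ε⌉₊ : ℕ∞) ≤ pavingNumber M A ε ∧ pavingNumber M A ε ≤ ⌊1 / ε⌋₊ + 1) := by
  refine ⟨fun ε hε => ?_, fun g hg ε ε' hεε => ?_, fun h0 ε hε => ?_⟩
  · obtain ⟨z, hzA, hz, h1, h2, hinf⟩ := exists_expected_part hA
    refine (pavingNumber_le_add hA hzA hz hε hinf).trans ?_
    gcongr
    exact cornerPavingNumber_le_iSup hA hzA hz h1 h2 hε.le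
  · rw [← cornerPavingNumber_one]
    exact cornerPavingNumber_mono hA hg.1 hg.2.1 one_isStarProjection (mul_one g) hεε
  · have hinf : Infinitesimal M A 1 :=
      infinitesimal_of_noCentralised hA (one_mem A) one_isStarProjection (fun ψ hψ => by
        by_contra hne
        obtain ⟨g, hg, -, hg0⟩ := exists_stateCorner_le hA hψ (one_mem A)
          one_isStarProjection hne
        exact hg0 (h0 g hg))
    rw [← cornerPavingNumber_one]
    exact ⟨ceil_le_corner hA (one_mem A) one_isStarProjection one_ne_zero hinf hε,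
      corner_le_floor hA (one_mem A) one_isStarProjection hinf hε⟩

end Vale.Agent.Results.P078.StateReduction
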